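import Vale.Agent.P154.XT2.XT2Data
import Vale.Agent.P154.R4.KForm
import Vale.Agent.P154.Q4.Cls5

/-!
# P154 q = 4: the subadditivity inequality (X4) on `T x T` for the class function `ps5 (87/40) (3/5)`

`XT2.keyX`, `XT2.pA_nonneg`: the fields `X4`, `p1_nonneg`, `p2_nonneg` of `PtG (ps5 (87/40) (3/5)) (1/50) pA pA c1 c2`.
-/

namespace Vale.Agent.P154.XT2

open Finset Vale.Agent.Util.Polya Vale.Agent.P154 Vale.Agent.P154.X57

/-- a polynomial below `1 / (1 + z)` -/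
noncomputable def qL (z : ℝ) : ℝ :=
  1 * z ^ 0 - 1 * z ^ 1 + 1 * z ^ 2 - 1 * z ^ 3 + 15 / 16 * z ^ 4 - 17 / 24 * z ^ 5 + 215 / 576 * z ^ 6 - 71 / 576 * z ^ 7 + 13 / 576 * z ^ 8 - 1 / 576 * z ^ 9

theorem qL_le (Z : ℝ) (hZ : 0 < Z) : qL (Z - 1) ≤ 1 / Z := by
  rw [le_div_iff₀ hZ]
  have h : qL (Z - 1) * Z = 1 - ((Z - 1) ^ 2 * (Z - 2) * (Z - 3) * (Z - 4)) ^ 2 / 576 := by
    unfold qL
    ring
  rw [h]
  have := sq_nonneg ((Z - 1) ^ 2 * (Z - 2) * (Z - 3) * (Z - 4))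
  linarith

noncomputable def phiL (u : Fin 4 → ℝ) : ℝ := 8 / 3 * e2Q u * qL (e1Q u - 1) - e1Q u

def tgtU : PE :=
  .add (.mul e2E (hornE zE [2431943798780067840000, -2431943798780067840000, 2431943798780067840000, -2431943798780067840000, 2279947311356313600000, -1722626857469214720000, 907756799891865600000, -299770850196848640000, 54887620458577920000, -4222124650659840000]))
    (.mul (.c (-911978924542525440000)) e1E)

set_option maxRecDepth 100000 in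
theorem chkUU : chkUK 96 13 11 Ld 4 16 tgtU = true := by
  decide +kernel

theorem sm_Ld (u : Fin 4 → ℝ) :
    sm 11 Ld (4 * u 0) (4 * u 1) (4 * u 2) (4 * u 3) 16 = 911978924542525440000 * phiL u := by
  rw [sm_tgtUK 96 13 11 Ld 4 16 tgtU chkUU u _ _ _ _ _ (by push_cast; ring) (by push_cast; ring)
    (by push_cast; ring) (by push_cast; ring) (by norm_num)]
  simp only [tgtU, PE.ev, ev_hornE, ev_e1E, ev_e2E, ev_zE, hornR]
  unfold phiL qL
  generalize e1Q u = Z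
  generalize e2Q u = E
  push_cast
  ring

/-- a multiplier -/
noncomputable def pA (b : Fin 4 → ℝ) : ℝ :=
  1 / 6 * ((∑ i, b i ^ 2)) - 1 / 48 * ((∑ i, b i ^ 3)) - 439 / 8000 * ((∑ i, b i ^ 4)) + 201 / 32000 * ((∑ i, b i ^ 2) ^ 2) + 387 / 32000 * ((∑ i, b i ^ 2) * (∑ i, b i ^ 3)) - 47 / 12000 * ((∑ i, b i ^ 3) ^ 2) - 81 / 32000 * ((∑ i, b i ^ 2) * (∑ i, b i ^ 4)) + 303 / 128000 * ((∑ i, b i ^ 2) ^ 3)

def LpA : TL :=
  [(2915, 0, 0, 0, 0), (-10316, 1, 0, 0, 0), (12312, 1, 1, 0, 0), (-174528, 1, 1, 1, 0), (-109016, 2, 0, 0, 0),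
   (111888, 2, 1, 0, 0), (1047168, 2, 1, 1, 0), (-435456, 2, 2, 0, 0), (-2094336, 2, 2, 1, 0),
   (1396224, 2, 2, 2, 0), (585264, 3, 0, 0, 0), (-205056, 3, 1, 0, 0), (1276416, 3, 2, 0, 0),
   (-1155072, 3, 3, 0, 0), (-961920, 4, 0, 0, 0), (-673920, 4, 1, 0, 0), (1347840, 4, 2, 0, 0),
   (898944, 5, 0, 0, 0), (-401152, 6, 0, 0, 0)]

def TpA : TG := [(-32366592, 0, 0, 1), (-12288000, 0, 1, 0), (-2310144, 0, 2, 0), (98304000, 1, 0, 0), (-1492992, 1, 0, 1), (7133184, 1, 1, 0), (3704832, 2, 0, 0), (1396224, 3, 0, 0)]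

set_option maxRecDepth 100000 in
theorem chkTpA : chkTK 40 7 6 LpA 1 1 4 TpA = true := by
  decide +kernel

set_option maxRecDepth 100000 in
theorem goodpA : good 6 0 48 (oneE 6 0 1 LpA) = true := by
  decide +kernel

set_option maxRecDepth 100000 in
theorem bndpA : 2 * bnd (oneE 6 0 1 LpA) < 2 ^ 48 := by
  decide +kernel

set_option maxRecDepth 100000 in
theorem chkpA : check 48 7 6 (oneE 6 0 1 LpA) 0 (7 * 7) = true := by
  decide +kernel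

theorem pA_nonneg (b : Fin 4 → ℝ) (hb : DT 1 b) : 0 ≤ pA b := by
  have h := sm_nonneg_of_check 48 7 6 0 1 LpA (by norm_num) (by norm_num) goodpA bndpA chkpA
    (fun i => 1 + b i) 4 (sideT_one b hb.1 hb.2)
  rw [sm_tgtK 40 7 6 LpA 1 1 4 TpA chkTpA b _ _ _ _ _ (by push_cast; ring)
    (by push_cast; ring) (by push_cast; ring) (by push_cast; ring) (by norm_num)] at h
  simp only [TpA, tgtR] at h
  unfold pA
  simp only [Fin.sum_univ_four]
  push_cast at h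
  linarith

theorem alQ_four (a : Fin 4 → ℝ) : alQ a = (a 0 ^ 2 + a 1 ^ 2 + a 2 ^ 2 + a 3 ^ 2) / 12 := by
  unfold alQ
  rw [Fin.sum_univ_four]
  norm_num

theorem KQ_al_leL (a b : Fin 4 → ℝ) (ha0 : ∑ i, a i = 0) (ha : ∀ i, -1 ≤ a i)
    (hb : ∀ i, -1 < b i) : KQ alQ a b ≤ -phiL (uQ a b) := by
  have hZ : 0 < ZQ a b := ZQ_pos (by norm_num) a b ha0 ha hb
  rw [KQ_al_eq a b hZ]
  rw [ZQ_eq_e1] at hZ
  have hu : ∀ i, 0 ≤ uQ a b i := fun i => by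
    unfold uQ
    have h1 : 0 ≤ 1 + a i := by linarith [ha i]
    have h2 : 0 ≤ 1 + b i := by linarith [hb i]
    positivity
  have h2 : 0 ≤ e2Q (uQ a b) := e2Q_nonneg _ hu
  have h3 := qL_le _ hZ
  have h4 := mul_le_mul_of_nonneg_left h3 h2
  unfold phiL
  have h5 : 8 / 3 * e2Q (uQ a b) / e1Q (uQ a b) = 8 / 3 * (e2Q (uQ a b) * (1 / e1Q (uQ a b))) := by
    ring
  rw [h5]
  linarith

theorem keyX (a b : Fin 4 → ℝ) (ha : DT 1 a) (hb : DT 1 b) (hb1 : ∀ i, -1 < b i) :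
    avQ (KQ alQ a) b ≤ alQ a + alQ b - pA b * ps5 (87 / 40) (3 / 5) a - pA a * ps5 (87 / 40) (3 / 5) b
      - 1 / 50 * (alQ a ^ 2 * alQ b + alQ a * alQ b ^ 2) := by
  have hm := masterG 120 12 11 0 1 0 1 Ld Xs Xt (by norm_num) (by norm_num) hgood hbnd hchk
    (fun i => 1 + a i) (fun i => 1 + b i) 4 4 (sideT_one a ha.1 ha.2) (sideT_one b hb.1 hb.2)
  have e : ∀ (σ : Equiv.Perm (Fin 4)) (i : Fin 4),
      (1 + a i) * (1 + b (σ i)) = 4 * uQ a (fun i => b (σ i)) i := by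
    intro σ i
    unfold uQ
    ring
  have eH : (4 : ℝ) * 4 = 16 := by norm_num
  simp only [e, eH, sm_Ld, Xs, Xt, List.map_cons, List.map_nil, dotRR] at hm
  rw [sm_tgtK 56 12 11 Xs0 1 1 4 Ts0 chkS0 a _ _ _ _ _ (by push_cast; ring)
    (by push_cast; ring) (by push_cast; ring) (by push_cast; ring) (by norm_num)] at hm
  rw [sm_tgtK 32 12 11 Xt0 1 1 4 Tt0 chkT0 b _ _ _ _ _ (by push_cast; ring)
    (by push_cast; ring) (by push_cast; ring) (by push_cast; ring) (by norm_num)] at hm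
  rw [sm_tgtK 56 12 11 Xs1 1 1 4 Ts1 chkS1 a _ _ _ _ _ (by push_cast; ring)
    (by push_cast; ring) (by push_cast; ring) (by push_cast; ring) (by norm_num)] at hm
  rw [sm_tgtK 32 12 11 Xt1 1 1 4 Tt1 chkT1 b _ _ _ _ _ (by push_cast; ring)
    (by push_cast; ring) (by push_cast; ring) (by push_cast; ring) (by norm_num)] at hm
  rw [sm_tgtK 48 12 11 Xs2 1 1 4 Ts2 chkS2 a _ _ _ _ _ (by push_cast; ring)
    (by push_cast; ring) (by push_cast; ring) (by push_cast; ring) (by norm_num)] at hm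
  rw [sm_tgtK 48 12 11 Xt2 1 1 4 Tt2 chkT2 b _ _ _ _ _ (by push_cast; ring)
    (by push_cast; ring) (by push_cast; ring) (by push_cast; ring) (by norm_num)] at hm
  rw [sm_tgtK 56 12 11 Xs3 1 1 4 Ts3 chkS3 a _ _ _ _ _ (by push_cast; ring)
    (by push_cast; ring) (by push_cast; ring) (by push_cast; ring) (by norm_num)] at hm
  rw [sm_tgtK 48 12 11 Xt3 1 1 4 Tt3 chkT3 b _ _ _ _ _ (by push_cast; ring)
    (by push_cast; ring) (by push_cast; ring) (by push_cast; ring) (by norm_num)] at hm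
  rw [sm_tgtK 48 12 11 Xs4 1 1 4 Ts4 chkS4 a _ _ _ _ _ (by push_cast; ring)
    (by push_cast; ring) (by push_cast; ring) (by push_cast; ring) (by norm_num)] at hm
  rw [sm_tgtK 32 12 11 Xt4 1 1 4 Tt4 chkT4 b _ _ _ _ _ (by push_cast; ring)
    (by push_cast; ring) (by push_cast; ring) (by push_cast; ring) (by norm_num)] at hm
  rw [sm_tgtK 48 12 11 Xs5 1 1 4 Ts5 chkS5 a _ _ _ _ _ (by push_cast; ring)
    (by push_cast; ring) (by push_cast; ring) (by push_cast; ring) (by norm_num)] at hm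
  rw [sm_tgtK 40 12 11 Xt5 1 1 4 Tt5 chkT5 b _ _ _ _ _ (by push_cast; ring)
    (by push_cast; ring) (by push_cast; ring) (by push_cast; ring) (by norm_num)] at hm
  simp only [Ts0, Tt0, Ts1, Tt1, Ts2, Tt2, Ts3, Tt3, Ts4, Tt4, Ts5, Tt5, tgtR] at hm
  have hs : ∑ σ : Equiv.Perm (Fin 4), KQ alQ a (fun i => b (σ i)) ≤
      ∑ σ : Equiv.Perm (Fin 4), -phiL (uQ a (fun i => b (σ i))) :=
    Finset.sum_le_sum fun σ _ => KQ_al_leL a _ ha.1 ha.2 (fun i => hb1 (σ i))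
  rw [Finset.sum_neg_distrib] at hs
  rw [← Finset.mul_sum] at hm
  unfold avQ
  have h24 : ((Nat.factorial 4 : ℕ) : ℝ) = 24 := by norm_num [Nat.factorial]
  rw [h24, div_le_iff₀ (by norm_num)]
  unfold pA ps5 m4
  simp only [alQ_four, Fin.sum_univ_four]
  generalize (∑ σ : Equiv.Perm (Fin 4), phiL (uQ a (fun i => b (σ i)))) = S at hm hs
  generalize (∑ σ : Equiv.Perm (Fin 4), KQ alQ a (fun i => b (σ i))) = K at hs
  generalize a 0 ^ 2 + a 1 ^ 2 + a 2 ^ 2 + a 3 ^ 2 = x2 at hm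
  generalize a 0 ^ 3 + a 1 ^ 3 + a 2 ^ 3 + a 3 ^ 3 = x3 at hm
  generalize a 0 ^ 4 + a 1 ^ 4 + a 2 ^ 4 + a 3 ^ 4 = x4 at hm
  generalize b 0 ^ 2 + b 1 ^ 2 + b 2 ^ 2 + b 3 ^ 2 = y2 at hm
  generalize b 0 ^ 3 + b 1 ^ 3 + b 2 ^ 3 + b 3 ^ 3 = y3 at hm
  generalize b 0 ^ 4 + b 1 ^ 4 + b 2 ^ 4 + b 3 ^ 4 = y4 at hm
  push_cast at hm
  linarith

end Vale.Agent.P154.XT2
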